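import Vale.Agent.P154.D7.K1.Data
import Vale.Agent.P154.ApxLemma

set_option maxRecDepth 100000

namespace Vale.Agent.P154.D7.K1

open PolyR Cert InT OutT

/-- The quotient polynomial for `j = 1`. -/
noncomputable def S1 (u : ℝ) : ℝ :=
  (-9 / 2097152 : ℝ) * u ^ 0 + (-1935 / 16777216 : ℝ) * u ^ 1 + (2377 / 4194304 : ℝ) * u ^ 2 + (5823 / 1048576 : ℝ) * u ^ 3 + (-265995 / 16777216 : ℝ) * u ^ 4 + (-1042415 / 16777216 : ℝ) * u ^ 5 + (2931983 / 16777216 : ℝ) * u ^ 6 + (303415 / 2097152 : ℝ) * u ^ 7 + (-10883475 / 16777216 : ℝ) * u ^ 8 + (7093027 / 16777216 : ℝ) * u ^ 9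

/-- Certificate polynomial. -/
def lpu1 : List ITm := [⟨(-5818456827455520397052168846130371093750000),0,0⟩,⟨(-43717825775502205942757427692413330078125000),1,0⟩,⟨149545433511142618954181671142578125000000000,2,0⟩,⟨1090103288265593782067298889160156250000000000,3,0⟩,⟨(-2315214554593445732462257146835327148437500000),4,0⟩,⟨(-6749557739374285016402065186500549316406250000),5,0⟩,⟨14122546279769529213422106536944793701171875000,6,0⟩,⟨8697521018537737571865333858973165195312500000,7,0⟩,⟨(-29010347470367594080763863046850787430608593750),8,0⟩,⟨14064809476258912358248562716535002536478959309,9,0⟩]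

/-- Certificate tree. -/
def tpu1 : OutT := (A (A (A (O l) (A (O l) (A (O l) (O l)))) (A (A (A (A (O l) (O l)) (A (O l) (A (O l) (O l)))) (A (A (A (O l) (O l)) (A (A (O l) (O l)) (A (O l) (O l)))) (A (A (A (O l) (O l)) (A (O l) (O l))) (A (A (O l) (O l)) (O l))))) (A (A (A (A (O l) (O l)) (A (O l) (O l))) (A (O l) (O l))) (A (A (O l) (O l)) (A (O l) (O l)))))) (A (A (A (A (A (O l) (O l)) (A (O l) (O l))) (A (A (O l) (O l)) (A (O l) (O l)))) (A (A (A (O l) (A (O l) (O l))) (A (A (O l) (O l)) (A (O l) (O l)))) (A (A (A (O l) (O l)) (A (O l) (O l))) (A (A (A (O l) (O l)) (A (O l) (O l))) (A (A (O l) (O l)) (A (O l) (O l))))))) (A (A (A (A (A (A (O l) (O l)) (A (O l) (O l))) (A (A (A (O l) (O l)) (A (O l) (O l))) (A (A (O l) (O l)) (A (O l) (O l))))) (A (A (A (A (O l) (O l)) (A (O l) (O l))) (A (A (A (O l) (O l)) (A (O l) (O l))) (A (A (O l) (O l)) (A (O l) (O l))))) (A (A (A (A (O l) (O l)) (A (O l) (O l))) (A (A (O l) (O l)) (A (O l) (O l)))) (A (A (A (O l) (O l)) (A (A (O l) (O l)) (A (O l) (O l)))) (A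 (A (A (O l) (O l)) (A (O l) (O l))) (A (A (O l) (O l)) (A (O l) (O l)))))))) (A (A (A (A (A (A (A (O l) (O l)) (O l)) (A (O l) (O l))) (A (A (O l) (O l)) (A (O l) (O l)))) (A (A (A (O l) (O l)) (A (O l) (O l))) (A (A (O l) (O l)) (A (O l) (O l))))) (A (A (A (A (O l) (O l)) (A (O l) (O l))) (A (A (O l) (O l)) (O l))) (A (A (O l) (O l)) (A (O l) (O l))))) (A (A (A (A (O l) (O l)) (A (O l) (O l))) (A (A (O l) (O l)) (A (O l) (O l)))) (A (A (A (O l) (O l)) (A (O l) (O l))) (A (O l) (O l)))))) (A (A (A (A (A (O l) (O l)) (A (O l) (O l))) (A (A (O l) (O l)) (A (O l) (O l)))) (A (A (A (O l) (O l)) (A (O l) (O l))) (A (A (O l) (O l)) (A (O l) (O l))))) (A (A (A (A (O l) (O l)) (A (O l) (O l))) (A (A (O l) (O l)) (A (O l) (O l)))) (A (A (A (O l) (O l)) (A (O l) (O l))) (A (A (A (O l) (O l)) (A (O l) (O l))) (A (A (O l) (O l)) (A (A (O l) (O l)) (A (O l) (A (O l) (O l))))))))))))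

theorem hpu1 (x : ℝ) (h0 : 0 ≤ x) (h1 : x ≤ 1) : evalIL lpu1 x 0 ≤ 0 :=
  uni_le 9 65536 lpu1 (by norm_num) (by norm_num) (by decide +kernel)
    (chkOut_sound (uniPb 9 65536 lpu1) tpu1 0 32768 0 32768 (by decide +kernel)) x h0 h1

/-- Certificate polynomial. -/
def lpl1 : List ITm := [⟨(-1725730669477343326434493064880371093750000),0,0⟩,⟨38105674519783860887400805950164794921875000,1,0⟩,⟨(-149545433511142618954181671142578125000000000),2,0⟩,⟨(-1090103288265593782067298889160156250000000000),3,0⟩,⟨2315214554593445732462257146835327148437500000,4,0⟩,⟨6749557739374285016402065186500549316406250000,5,0⟩,⟨(-14122546279769529213422106536944793701171875000),6,0⟩,⟨(-8697521018537737571865333858973165195312500000),7,0⟩,⟨29010347470367594080763863046850787430608593750,8,0⟩,⟨(-14064809476258912358248562716535002536478959309),9,0⟩]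

/-- Certificate tree. -/
def tpl1 : OutT := (A (A (A (A (A (O l) (A (O l) (O l))) (A (A (O l) (O l)) (A (O l) (O l)))) (A (A (O l) (O l)) (O l))) (A (A (O l) (A (O l) (O l))) (A (A (O l) (O l)) (A (A (O l) (O l)) (A (O l) (O l)))))) (A (A (A (A (A (A (O l) (O l)) (A (O l) (O l))) (A (A (O l) (O l)) (A (A (O l) (O l)) (A (O l) (O l))))) (A (A (A (A (O l) (O l)) (A (A (O l) (O l)) (A (O l) (O l)))) (A (A (A (O l) (O l)) (A (O l) (O l))) (A (A (O l) (O l)) (A (O l) (O l))))) (A (A (A (A (O l) (O l)) (A (O l) (O l))) (A (A (O l) (O l)) (A (O l) (O l)))) (A (A (A (O l) (O l)) (A (O l) (O l))) (A (A (O l) (O l)) (A (O l) (O l))))))) (A (A (A (A (A (A (O l) (O l)) (O l)) (A (O l) (O l))) (A (A (O l) (O l)) (A (O l) (O l)))) (A (A (A (O l) (O l)) (A (O l) (O l))) (A (A (O l) (O l)) (A (O l) (O l))))) (A (A (A (O l) (O l)) (A (O l) (O l))) (A (A (O l) (O l)) (A (O l) (O l)))))) (A (A (A (A (A (O l) (O l)) (A (O l) (O l))) (A (A (O l) (O l)) (A (O l) (O l)))) (A (A (A (O l) (O l)) (A (O l) (O l))) (A (A (A (O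 l) (O l)) (A (O l) (O l))) (A (A (O l) (O l)) (A (O l) (O l)))))) (A (A (A (A (A (O l) (O l)) (A (O l) (O l))) (A (A (O l) (O l)) (A (O l) (O l)))) (A (A (A (A (O l) (O l)) (A (O l) (O l))) (A (A (O l) (O l)) (A (O l) (O l)))) (A (A (A (O l) (O l)) (A (O l) (O l))) (A (A (A (O l) (O l)) (A (O l) (O l))) (A (A (O l) (O l)) (A (O l) (O l))))))) (A (A (A (A (A (A (O l) (O l)) (A (O l) (O l))) (A (A (O l) (A (O l) (O l))) (A (A (O l) (O l)) (A (O l) (O l))))) (A (A (A (A (O l) (O l)) (A (O l) (O l))) (A (A (O l) (O l)) (A (O l) (O l)))) (A (A (A (O l) (O l)) (A (O l) (O l))) (A (A (O l) (O l)) (A (O l) (O l)))))) (A (A (A (A (A (O l) (O l)) (A (O l) (O l))) (A (A (O l) (O l)) (A (O l) (O l)))) (A (A (A (O l) (O l)) (A (O l) (O l))) (A (O l) (O l)))) (A (A (A (O l) (O l)) (A (O l) (O l))) (A (A (O l) (O l)) (A (O l) (O l)))))) (A (A (A (A (A (O l) (O l)) (O l)) (A (O l) (O l))) (A (A (O l) (O l)) (A (O l) (O l)))) (A (A (A (O l) (O l)) (O l)) (A (O l) (O l)))))))))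

theorem hpl1 (x : ℝ) (h0 : 0 ≤ x) (h1 : x ≤ 1) : evalIL lpl1 x 0 ≤ 0 :=
  uni_le 9 65536 lpl1 (by norm_num) (by norm_num) (by decide +kernel)
    (chkOut_sound (uniPb 9 65536 lpl1) tpl1 0 32768 0 32768 (by decide +kernel)) x h0 h1

/-- Certificate polynomial. -/
def lnu1 : List ITm := [⟨(-2979049895657226443290710449218750000000000000),0,0⟩,⟨11191763398528564721345901489257812500000000000,1,0⟩,⟨19141815489426255226135253906250000000000000000,2,0⟩,⟨(-69766610448998002052307128906250000000000000000),3,0⟩,⟨(-74086865746990263438792228698730468750000000000),4,0⟩,⟨107992923829988560262433042984008789062500000000,5,0⟩,⟨112980370238156233707376852295558349609375000000,6,0⟩,⟨(-34790084074150950287461335435892660781250000000),7,0⟩,⟨(-58020694940735188161527726093701574861217187500),8,0⟩,⟨(-14064809476258912358248562716535002536478959309),9,0⟩]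

/-- Certificate tree. -/
def tnu1 : OutT := (A (A (A (O l) (A (O l) (O l))) (A (A (A (O l) (A (O l) (O l))) (A (A (O l) (O l)) (A (O l) (O l)))) (A (A (O l) (O l)) (O l)))) (A (A (A (O l) (O l)) (A (O l) (O l))) (A (A (A (O l) (O l)) (A (O l) (A (O l) (O l)))) (A (A (A (A (O l) (O l)) (A (O l) (O l))) (A (A (A (O l) (O l)) (A (O l) (O l))) (A (A (O l) (O l)) (A (O l) (O l))))) (A (A (A (O l) (O l)) (A (O l) (O l))) (A (O l) (O l)))))))

theorem hnu1 (x : ℝ) (h0 : 0 ≤ x) (h1 : x ≤ 1) : evalIL lnu1 x 0 ≤ 0 :=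
  uni_le 9 65536 lnu1 (by norm_num) (by norm_num) (by decide +kernel)
    (chkOut_sound (uniPb 9 65536 lnu1) tnu1 0 32768 0 32768 (by decide +kernel)) x h0 h1

/-- Certificate polynomial. -/
def lnl1 : List ITm := [⟨(-883574102772399783134460449218750000000000000),0,0⟩,⟨(-9755052677064668387174606323242187500000000000),1,0⟩,⟨(-19141815489426255226135253906250000000000000000),2,0⟩,⟨69766610448998002052307128906250000000000000000,3,0⟩,⟨74086865746990263438792228698730468750000000000,4,0⟩,⟨(-107992923829988560262433042984008789062500000000),5,0⟩,⟨(-112980370238156233707376852295558349609375000000),6,0⟩,⟨34790084074150950287461335435892660781250000000,7,0⟩,⟨58020694940735188161527726093701574861217187500,8,0⟩,⟨14064809476258912358248562716535002536478959309,9,0⟩]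

/-- Certificate tree. -/
def tnl1 : OutT := (A (A (A (O l) (O l)) (A (O l) (O l))) (A (A (A (O l) (A (O l) (O l))) (A (A (A (O l) (O l)) (A (A (O l) (O l)) (A (O l) (O l)))) (A (A (A (O l) (O l)) (A (O l) (O l))) (A (A (O l) (O l)) (O l))))) (A (A (A (A (O l) (O l)) (O l)) (A (O l) (O l))) (A (A (O l) (O l)) (A (O l) (A (O l) (A (O l) (A (O l) (O l)))))))))

theorem hnl1 (x : ℝ) (h0 : 0 ≤ x) (h1 : x ≤ 1) : evalIL lnl1 x 0 ≤ 0 :=
  uni_le 9 65536 lnl1 (by norm_num) (by norm_num) (by decide +kernel)
    (chkOut_sound (uniPb 9 65536 lnl1) tnl1 0 32768 0 32768 (by decide +kernel)) x h0 h1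

theorem apx1 (u : ℝ) (h0 : -(23247 / 62500 : ℝ) ≤ u) (h1 : u ≤ 2 * (23247 / 62500 : ℝ)) :
    |((1 + u)⁻¹) ^ 1 - evalZ Ax.p1 (3 * u) / Ax.D1| ≤ Ax.e1 * |u| ^ Ax.m1 := by
  have hu : 0 < 1 + u := by norm_num at h0 ⊢; linarith
  refine apx_of_S 1 2 _ (S1 u) _ u hu ?_ ?_ ?_
  · simp only [Ax, evalZ_cons, evalZ_nil, S1]
    push_cast
    ring
  · rcases le_total 0 u with hs | hs
    · have hx := hpu1 (u / (2 * (23247 / 62500 : ℝ))) (by positivity) (by rw [div_le_one (by norm_num)]; exact h1)
      have e : evalIL lpu1 (u / (2 * (23247 / 62500 : ℝ))) 0 = 476837158203125000000000000000000000000000000000 * (S1 u - Ax.e1 * (1 + u) ^ 1) := by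
        simp only [lpu1, evalIL, List.map_cons, List.map_nil, List.sum_cons, List.sum_nil, S1, Ax]
        push_cast
        ring
      rw [e] at hx
      have := cmul_nonpos (by norm_num) hx
      simp only [Ax] at this ⊢
      linarith
    · have hx := hnu1 (-u / (23247 / 62500 : ℝ)) (by apply div_nonneg <;> [linarith; norm_num]) (by rw [div_le_one (by norm_num)]; linarith)
      have e : evalIL lnu1 (-u / (23247 / 62500 : ℝ)) 0 = 244140625000000000000000000000000000000000000000000 * (S1 u - Ax.e1 * (1 + u) ^ 1) := by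
        simp only [lnu1, evalIL, List.map_cons, List.map_nil, List.sum_cons, List.sum_nil, S1, Ax]
        push_cast
        ring
      rw [e] at hx
      have := cmul_nonpos (by norm_num) hx
      simp only [Ax] at this ⊢
      linarith
  · rcases le_total 0 u with hs | hs
    · have hx := hpl1 (u / (2 * (23247 / 62500 : ℝ))) (by positivity) (by rw [div_le_one (by norm_num)]; exact h1)
      have e : evalIL lpl1 (u / (2 * (23247 / 62500 : ℝ))) 0 = 476837158203125000000000000000000000000000000000 * (-S1 u - Ax.e1 * (1 + u) ^ 1) := by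
        simp only [lpl1, evalIL, List.map_cons, List.map_nil, List.sum_cons, List.sum_nil, S1, Ax]
        push_cast
        ring
      rw [e] at hx
      have := cmul_nonpos (by norm_num) hx
      simp only [Ax] at this ⊢
      linarith
    · have hx := hnl1 (-u / (23247 / 62500 : ℝ)) (by apply div_nonneg <;> [linarith; norm_num]) (by rw [div_le_one (by norm_num)]; linarith)
      have e : evalIL lnl1 (-u / (23247 / 62500 : ℝ)) 0 = 244140625000000000000000000000000000000000000000000 * (-S1 u - Ax.e1 * (1 + u) ^ 1) := by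
        simp only [lnl1, evalIL, List.map_cons, List.map_nil, List.sum_cons, List.sum_nil, S1, Ax]
        push_cast
        ring
      rw [e] at hx
      have := cmul_nonpos (by norm_num) hx
      simp only [Ax] at this ⊢
      linarith

/-- The quotient polynomial for `j = 2`. -/
noncomputable def S2 (u : ℝ) : ℝ :=
  (-113 / 2097152 : ℝ) * u ^ 0 + (-11579 / 8388608 : ℝ) * u ^ 1 + (98375 / 16777216 : ℝ) * u ^ 2 + (296999 / 4194304 : ℝ) * u ^ 3 + (-2260955 / 16777216 : ℝ) * u ^ 4 + (-1875801 / 2097152 : ℝ) * u ^ 5 + (750465 / 524288 : ℝ) * u ^ 6 + (59492071 / 16777216 : ℝ) * u ^ 7 + (-12884055 / 2097152 : ℝ) * u ^ 8 + (-33098261 / 16777216 : ℝ) * u ^ 9 + (19249017 / 4194304 : ℝ) * u ^ 10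

/-- Certificate polynomial. -/
def lpu2 : List ITm := [⟨(-1097594237720045384776312857866287231445312500000),0,0⟩,⟨(-8686189927331611215777229517698287963867187500000),1,0⟩,⟨23791001998383507043399731628596782684326171875000,2,0⟩,⟨217188027616505323501769453287124633789062500000000,3,0⟩,⟨(-307489093032812182562125381082296371459960937500000),4,0⟩,⟨(-1518208577806826360908564520716667175292968750000000),5,0⟩,⟨1807390543166048326533752273162612915039062500000000,6,0⟩,⟨3330792409161901035689438637421721351211547851562500,7,0⟩,⟨(-4292871904163501918668394670682997871190839843750000),8,0⟩,⟨(-1025480585899034151801120205068003163503137077921875),9,0⟩,⟨1774629545959326286861800007093891761316821281919666,10,0⟩]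

/-- Certificate tree. -/
def tpu2 : OutT := (A (A (A (O l) (A (O l) (A (O l) (O l)))) (A (A (A (A (O l) (O l)) (A (O l) (A (O l) (O l)))) (A (A (A (O l) (O l)) (A (A (O l) (O l)) (A (O l) (O l)))) (A (A (A (O l) (O l)) (A (O l) (O l))) (A (O l) (O l))))) (A (A (A (A (O l) (O l)) (O l)) (A (O l) (O l))) (A (A (O l) (O l)) (A (O l) (O l)))))) (A (A (A (A (A (O l) (O l)) (A (O l) (O l))) (A (A (O l) (O l)) (A (O l) (O l)))) (A (A (A (O l) (O l)) (A (O l) (A (O l) (O l)))) (A (A (A (O l) (O l)) (A (O l) (O l))) (A (A (O l) (O l)) (A (A (O l) (O l)) (A (O l) (O l))))))) (A (A (A (A (A (A (O l) (O l)) (A (O l) (O l))) (A (A (O l) (O l)) (A (A (O l) (O l)) (A (O l) (O l))))) (A (A (A (A (O l) (O l)) (A (O l) (O l))) (A (A (O l) (O l)) (A (A (O l) (O l)) (A (O l) (O l))))) (A (A (A (A (O l) (O l)) (A (O l) (O l))) (A (A (O l) (O l)) (A (O l) (O l)))) (A (A (A (O l) (O l)) (A (O l) (O l))) (A (A (O l) (O l)) (A (O l) (O l))))))) (A (A (A (A (A (A (O l) (O l)) (A (O l) (O l))) (A (A (O l) (O l)) (A (O l) (O l))))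 (A (A (A (O l) (O l)) (A (O l) (O l))) (A (A (O l) (O l)) (O l)))) (A (A (A (O l) (O l)) (A (O l) (O l))) (A (A (O l) (O l)) (A (O l) (O l))))) (A (A (A (A (O l) (O l)) (A (O l) (O l))) (A (O l) (O l))) (A (A (O l) (O l)) (A (O l) (O l)))))) (A (A (A (A (A (O l) (O l)) (A (O l) (O l))) (A (A (O l) (O l)) (A (O l) (O l)))) (A (A (A (O l) (O l)) (A (O l) (O l))) (A (A (O l) (O l)) (O l)))) (A (A (A (O l) (O l)) (A (A (O l) (O l)) (A (O l) (O l)))) (A (A (A (O l) (O l)) (A (O l) (O l))) (A (A (O l) (O l)) (A (A (O l) (O l)) (A (O l) (A (O l) (A (O l) (O l))))))))))))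

theorem hpu2 (x : ℝ) (h0 : 0 ≤ x) (h1 : x ≤ 1) : evalIL lpu2 x 0 ≤ 0 :=
  uni_le 10 65536 lpu2 (by norm_num) (by norm_num) (by decide +kernel)
    (chkOut_sound (uniPb 10 65536 lpu2) tpu2 0 32768 0 32768 (by decide +kernel)) x h0 h1

/-- Certificate polynomial. -/
def lpl2 : List ITm := [⟨(-294680946311132174741942435503005981445312500000),0,0⟩,⟨6614751770328552993305493146181106567382812500000,1,0⟩,⟨(-24561477563757108555364538915455341339111328125000),2,0⟩,⟨(-217188027616505323501769453287124633789062500000000),3,0⟩,⟨307489093032812182562125381082296371459960937500000,4,0⟩,⟨1518208577806826360908564520716667175292968750000000,5,0⟩,⟨(-1807390543166048326533752273162612915039062500000000),6,0⟩,⟨(-3330792409161901035689438637421721351211547851562500),7,0⟩,⟨4292871904163501918668394670682997871190839843750000,8,0⟩,⟨1025480585899034151801120205068003163503137077921875,9,0⟩,⟨(-1774629545959326286861800007093891761316821281919666),10,0⟩]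

/-- Certificate tree. -/
def tpl2 : OutT := (A (A (A (A (A (O l) (A (O l) (O l))) (A (A (O l) (O l)) (A (O l) (O l)))) (A (A (O l) (O l)) (O l))) (A (A (O l) (A (O l) (O l))) (A (A (O l) (O l)) (A (A (O l) (O l)) (A (O l) (O l)))))) (A (A (A (A (A (O l) (A (O l) (O l))) (A (A (O l) (O l)) (A (A (O l) (O l)) (A (O l) (O l))))) (A (A (A (A (O l) (O l)) (A (O l) (A (O l) (O l)))) (A (A (A (O l) (O l)) (A (O l) (O l))) (A (A (O l) (O l)) (A (O l) (O l))))) (A (A (A (A (O l) (O l)) (A (O l) (O l))) (A (A (O l) (O l)) (A (O l) (O l)))) (A (A (A (O l) (O l)) (A (O l) (O l))) (A (A (O l) (O l)) (O l)))))) (A (A (A (A (A (O l) (O l)) (A (O l) (O l))) (A (A (O l) (O l)) (A (O l) (O l)))) (A (A (A (O l) (O l)) (O l)) (A (O l) (O l)))) (A (A (A (O l) (O l)) (A (O l) (O l))) (A (A (O l) (O l)) (A (O l) (O l)))))) (A (A (A (A (A (O l) (O l)) (A (O l) (O l))) (A (A (O l) (O l)) (A (O l) (O l)))) (A (A (A (O l) (O l)) (A (O l) (O l))) (A (A (O l) (O l)) (A (O l) (O l))))) (A (A (A (A (A (O l) (O l)) (A (O l) (O l)))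 (A (A (O l) (O l)) (A (O l) (O l)))) (A (A (A (O l) (O l)) (A (A (O l) (O l)) (A (O l) (O l)))) (A (A (A (O l) (O l)) (A (O l) (O l))) (A (A (O l) (O l)) (A (O l) (A (O l) (O l))))))) (A (A (A (A (A (A (O l) (O l)) (A (O l) (O l))) (A (A (O l) (O l)) (A (O l) (O l)))) (A (A (A (A (O l) (O l)) (A (O l) (O l))) (A (A (O l) (O l)) (A (O l) (O l)))) (A (A (A (O l) (O l)) (A (O l) (O l))) (A (A (O l) (O l)) (A (O l) (O l)))))) (A (A (A (A (A (O l) (O l)) (A (O l) (O l))) (A (O l) (O l))) (A (A (O l) (O l)) (A (O l) (O l)))) (A (A (A (O l) (O l)) (A (O l) (O l))) (A (O l) (O l))))) (A (A (A (A (O l) (O l)) (A (O l) (O l))) (A (A (O l) (O l)) (O l))) (A (A (O l) (O l)) (A (O l) (O l)))))))))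

theorem hpl2 (x : ℝ) (h0 : 0 ≤ x) (h1 : x ≤ 1) : evalIL lpl2 x 0 ≤ 0 :=
  uni_le 10 65536 lpl2 (by norm_num) (by norm_num) (by decide +kernel)
    (chkOut_sound (uniPb 10 65536 lpl2) tpl2 0 32768 0 32768 (by decide +kernel)) x h0 h1

/-- Certificate polynomial. -/
def lnu2 : List ITm := [⟨(-561968249712663237005472183227539062500000000000000),0,0⟩,⟨2223664621396892471238970756530761718750000000000000,1,0⟩,⟨3045248255793088901555165648460388183593750000000000,2,0⟩,⟨(-13900033767456340704113245010375976562500000000000000),3,0⟩,⟨(-9839650977049989841988012194633483886718750000000000),4,0⟩,⟨24291337244909221774537032331466674804687500000000000,5,0⟩,⟨14459124345328386612270018185300903320312500000000000,6,0⟩,⟨(-13323169636647604142757754549686885404846191406250000),7,0⟩,⟨(-8585743808327003837336789341365995742381679687500000),8,0⟩,⟨1025480585899034151801120205068003163503137077921875,9,0⟩,⟨887314772979663143430900003546945880658410640959833,10,0⟩]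

/-- Certificate tree. -/
def tnu2 : OutT := (A (A (A (O l) (A (O l) (O l))) (A (A (A (O l) (A (O l) (O l))) (A (A (O l) (O l)) (A (O l) (O l)))) (A (A (O l) (O l)) (O l)))) (A (A (A (O l) (O l)) (A (O l) (O l))) (A (A (A (O l) (O l)) (A (A (O l) (O l)) (A (O l) (O l)))) (A (A (A (A (O l) (O l)) (A (O l) (A (O l) (O l)))) (A (A (A (O l) (O l)) (A (O l) (A (O l) (O l)))) (A (A (A (O l) (O l)) (O l)) (A (O l) (O l))))) (A (A (A (A (O l) (O l)) (O l)) (A (O l) (O l))) (A (O l) (O l)))))))

theorem hnu2 (x : ℝ) (h0 : 0 ≤ x) (h1 : x ≤ 1) : evalIL lnu2 x 0 ≤ 0 :=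
  uni_le 10 65536 lnu2 (by norm_num) (by norm_num) (by decide +kernel)
    (chkOut_sound (uniPb 10 65536 lnu2) tnu2 0 32768 0 32768 (by decide +kernel)) x h0 h1

/-- Certificate polynomial. -/
def lnl2 : List ITm := [⟨(-150876644511299673467874526977539062500000000000000),0,0⟩,⟨(-1693376453204109566286206245422363281250000000000000),1,0⟩,⟨(-3143869128160909895086660981178283691406250000000000),2,0⟩,⟨13900033767456340704113245010375976562500000000000000,3,0⟩,⟨9839650977049989841988012194633483886718750000000000,4,0⟩,⟨(-24291337244909221774537032331466674804687500000000000),5,0⟩,⟨(-14459124345328386612270018185300903320312500000000000),6,0⟩,⟨13323169636647604142757754549686885404846191406250000,7,0⟩,⟨8585743808327003837336789341365995742381679687500000,8,0⟩,⟨(-1025480585899034151801120205068003163503137077921875),9,0⟩,⟨(-887314772979663143430900003546945880658410640959833),10,0⟩]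

/-- Certificate tree. -/
def tnl2 : OutT := (A (A (A (O l) (O l)) (A (O l) (A (O l) (O l)))) (A (A (A (O l) (A (O l) (O l))) (A (A (A (O l) (O l)) (A (A (O l) (O l)) (A (O l) (O l)))) (A (A (A (A (O l) (O l)) (A (O l) (O l))) (A (O l) (O l))) (A (A (O l) (O l)) (O l))))) (A (A (A (A (O l) (O l)) (A (O l) (O l))) (A (O l) (O l))) (A (A (O l) (O l)) (A (A (O l) (O l)) (A (O l) (A (O l) (A (O l) (A (O l) (O l))))))))))

theorem hnl2 (x : ℝ) (h0 : 0 ≤ x) (h1 : x ≤ 1) : evalIL lnl2 x 0 ≤ 0 :=
  uni_le 10 65536 lnl2 (by norm_num) (by norm_num) (by decide +kernel)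
    (chkOut_sound (uniPb 10 65536 lnl2) tnl2 0 32768 0 32768 (by decide +kernel)) x h0 h1

theorem apx2 (u : ℝ) (h0 : -(23247 / 62500 : ℝ) ≤ u) (h1 : u ≤ 2 * (23247 / 62500 : ℝ)) :
    |((1 + u)⁻¹) ^ 2 - evalZ Ax.p2 (3 * u) / Ax.D2| ≤ Ax.e2 * |u| ^ Ax.m2 := by
  have hu : 0 < 1 + u := by norm_num at h0 ⊢; linarith
  refine apx_of_S 2 2 _ (S2 u) _ u hu ?_ ?_ ?_
  · simp only [Ax, evalZ_cons, evalZ_nil, S2]
    push_cast
    ring
  · rcases le_total 0 u with hs | hs
    · have hx := hpu2 (u / (2 * (23247 / 62500 : ℝ))) (by positivity) (by rw [div_le_one (by norm_num)]; exact h1)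
      have e : evalIL lpu2 (u / (2 * (23247 / 62500 : ℝ))) 0 = 7450580596923828125000000000000000000000000000000000 * (S2 u - Ax.e2 * (1 + u) ^ 2) := by
        simp only [lpu2, evalIL, List.map_cons, List.map_nil, List.sum_cons, List.sum_nil, S2, Ax]
        push_cast
        ring
      rw [e] at hx
      have := cmul_nonpos (by norm_num) hx
      simp only [Ax] at this ⊢
      linarith
    · have hx := hnu2 (-u / (23247 / 62500 : ℝ)) (by apply div_nonneg <;> [linarith; norm_num]) (by rw [div_le_one (by norm_num)]; linarith)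
      have e : evalIL lnu2 (-u / (23247 / 62500 : ℝ)) 0 = 3814697265625000000000000000000000000000000000000000000 * (S2 u - Ax.e2 * (1 + u) ^ 2) := by
        simp only [lnu2, evalIL, List.map_cons, List.map_nil, List.sum_cons, List.sum_nil, S2, Ax]
        push_cast
        ring
      rw [e] at hx
      have := cmul_nonpos (by norm_num) hx
      simp only [Ax] at this ⊢
      linarith
  · rcases le_total 0 u with hs | hs
    · have hx := hpl2 (u / (2 * (23247 / 62500 : ℝ))) (by positivity) (by rw [div_le_one (by norm_num)]; exact h1)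
      have e : evalIL lpl2 (u / (2 * (23247 / 62500 : ℝ))) 0 = 7450580596923828125000000000000000000000000000000000 * (-S2 u - Ax.e2 * (1 + u) ^ 2) := by
        simp only [lpl2, evalIL, List.map_cons, List.map_nil, List.sum_cons, List.sum_nil, S2, Ax]
        push_cast
        ring
      rw [e] at hx
      have := cmul_nonpos (by norm_num) hx
      simp only [Ax] at this ⊢
      linarith
    · have hx := hnl2 (-u / (23247 / 62500 : ℝ)) (by apply div_nonneg <;> [linarith; norm_num]) (by rw [div_le_one (by norm_num)]; linarith)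
      have e : evalIL lnl2 (-u / (23247 / 62500 : ℝ)) 0 = 3814697265625000000000000000000000000000000000000000000 * (-S2 u - Ax.e2 * (1 + u) ^ 2) := by
        simp only [lnl2, evalIL, List.map_cons, List.map_nil, List.sum_cons, List.sum_nil, S2, Ax]
        push_cast
        ring
      rw [e] at hx
      have := cmul_nonpos (by norm_num) hx
      simp only [Ax] at this ⊢
      linarith

/-- The quotient polynomial for `j = 3`. -/
noncomputable def S3 (u : ℝ) : ℝ :=
  (17759 / 16777216 : ℝ) * u ^ 0 + (-48317 / 2097152 : ℝ) * u ^ 1 + (-1577191 / 8388608 : ℝ) * u ^ 2 + (11421271 / 16777216 : ℝ) * u ^ 3 + (64519875 / 16777216 : ℝ) * u ^ 4 + (-104171771 / 16777216 : ℝ) * u ^ 5 + (-94417491 / 4194304 : ℝ) * u ^ 6 + (402087659 / 16777216 : ℝ) * u ^ 7 + (334462803 / 8388608 : ℝ) * u ^ 8 + (-371314463 / 16777216 : ℝ) * u ^ 9 + (-215889975 / 8388608 : ℝ) * u ^ 10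

/-- Certificate polynomial. -/
def lpu3 : List ITm := [⟨(-297863678166976342254201881587505340576171875000),0,0⟩,⟨(-6476606270409135390764276962727308273315429687500),1,0⟩,⟨(-32026556212360359552349109435454010963439941406250),2,0⟩,⟨83268442635518379547856966382823884487152099609375,3,0⟩,⟨350987221706587046931681688874959945678710937500000,4,0⟩,⟨(-421565177482921690268131681321263313293457031250000),5,0⟩,⟨(-1136956955639939766518529288158412094116210937500000),6,0⟩,⟨900469928111851368852189955024460139475708007812500,7,0⟩,⟨1114405340544162704997540998596247371220878242187500,8,0⟩,⟨(-460176168252495487052559567094205309624537123450625),9,0⟩,⟨(-398071993298587977856154246200208680789667870970351),10,0⟩]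

/-- Certificate tree. -/
def tpu3 : OutT := (A (A (A (A (O l) (O l)) (O l)) (A (A (O l) (A (O l) (O l))) (A (A (O l) (A (O l) (O l))) (A (A (O l) (A (O l) (O l))) (A (A (O l) (A (O l) (O l))) (A (A (O l) (O l)) (A (O l) (O l)))))))) (A (A (A (A (A (A (A (O l) (O l)) (A (O l) (O l))) (A (O l) (O l))) (A (A (O l) (O l)) (A (O l) (O l)))) (A (A (O l) (O l)) (A (O l) (O l)))) (A (A (A (O l) (O l)) (A (O l) (O l))) (A (A (O l) (O l)) (A (O l) (O l))))) (A (A (A (A (O l) (O l)) (A (O l) (O l))) (A (A (O l) (O l)) (A (A (O l) (O l)) (A (O l) (O l))))) (A (A (A (A (O l) (O l)) (A (O l) (A (O l) (O l)))) (A (A (A (O l) (O l)) (A (O l) (A (O l) (O l)))) (A (A (A (O l) (O l)) (A (O l) (O l))) (A (A (O l) (A (O l) (O l))) (A (A (O l) (O l)) (A (O l) (O l))))))) (A (A (A (A (A (A (O l) (O l)) (A (O l) (O l))) (A (O l) (O l))) (A (A (O l) (O l)) (A (O l) (O l)))) (A (A (O l) (O l)) (A (O l) (O l)))) (A (A (A (O l) (O l)) (O l)) (A (O l) (O l))))))))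

theorem hpu3 (x : ℝ) (h0 : 0 ≤ x) (h1 : x ≤ 1) : evalIL lpu3 x 0 ≤ 0 :=
  uni_le 10 65536 lpu3 (by norm_num) (by norm_num) (by decide +kernel)
    (chkOut_sound (uniPb 10 65536 lpu3) tpu3 0 32768 0 32768 (by decide +kernel)) x h0 h1

/-- Certificate polynomial. -/
def lpl3 : List ITm := [⟨(-928790100385157302298466674983501434326171875000),0,0⟩,⟨3739068312968996110612351913005113601684570312500,1,0⟩,⟨29990090775668810181286971783265471458435058593750,2,0⟩,⟨(-83773420896923909662300502532161772251129150390625),3,0⟩,⟨(-350987221706587046931681688874959945678710937500000),4,0⟩,⟨421565177482921690268131681321263313293457031250000,5,0⟩,⟨1136956955639939766518529288158412094116210937500000,6,0⟩,⟨(-900469928111851368852189955024460139475708007812500),7,0⟩,⟨(-1114405340544162704997540998596247371220878242187500),8,0⟩,⟨460176168252495487052559567094205309624537123450625,9,0⟩,⟨398071993298587977856154246200208680789667870970351,10,0⟩]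

/-- Certificate tree. -/
def tpl3 : OutT := (A (A (A (A (O l) (O l)) (A (A (O l) (A (O l) (O l))) (A (A (O l) (O l)) (A (O l) (O l))))) (A (A (A (O l) (O l)) (A (O l) (O l))) (A (A (O l) (O l)) (A (O l) (O l))))) (A (A (A (A (O l) (O l)) (A (O l) (A (O l) (O l)))) (A (A (A (O l) (O l)) (A (O l) (A (O l) (O l)))) (A (A (A (O l) (O l)) (A (O l) (O l))) (A (A (A (O l) (O l)) (A (O l) (O l))) (A (A (O l) (O l)) (A (A (O l) (O l)) (A (O l) (O l)))))))) (A (A (A (A (A (A (A (O l) (O l)) (A (O l) (O l))) (A (A (O l) (O l)) (A (O l) (O l)))) (A (A (A (O l) (O l)) (A (O l) (O l))) (A (O l) (O l)))) (A (A (A (O l) (O l)) (A (O l) (O l))) (A (A (O l) (O l)) (O l)))) (A (A (A (O l) (O l)) (A (O l) (O l))) (A (A (O l) (O l)) (A (O l) (O l))))) (A (A (A (O l) (O l)) (A (O l) (O l))) (A (A (O l) (A (O l) (O l))) (A (A (O l) (O l)) (A (O l) (A (O l) (A (O l) (A (O l) (O l)))))))))))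

theorem hpl3 (x : ℝ) (h0 : 0 ≤ x) (h1 : x ≤ 1) : evalIL lpl3 x 0 ≤ 0 :=
  uni_le 10 65536 lpl3 (by norm_num) (by norm_num) (by decide +kernel)
    (chkOut_sound (uniPb 10 65536 lpl3) tpl3 0 32768 0 32768 (by decide +kernel)) x h0 h1

/-- Certificate polynomial. -/
def lnu3 : List ITm := [⟨(-305012406442983774468302726745605468750000000000000),0,0⟩,⟨3316022410449477320071309804916381835937500000000000,1,0⟩,⟨(-8198798390364252045401372015476226806640625000000000),2,0⟩,⟨(-10658360657346352582125691697001457214355468750000000),3,0⟩,⟨22463182189221571003627628087997436523437500000000000,4,0⟩,⟨13490085679453494088580213802280426025390625000000000,5,0⟩,⟨(-18191311290239036264296468610534593505859375000000000),6,0⟩,⟨(-7203759424894810950817519640195681115805664062500000),7,0⟩,⟨4457621362176650819990163994384989484883512968750000,8,0⟩,⟨920352336504990974105119134188410619249074246901250,9,0⟩,⟨(-398071993298587977856154246200208680789667870970351),10,0⟩]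

/-- Certificate tree. -/
def tnu3 : OutT := (A (A (A (A (O l) (O l)) (A (A (O l) (O l)) (A (O l) (O l)))) (A (A (O l) (O l)) (A (O l) (O l)))) (A (A (A (O l) (O l)) (A (O l) (O l))) (A (A (A (O l) (O l)) (A (A (O l) (O l)) (A (O l) (A (O l) (O l))))) (A (A (A (A (O l) (A (O l) (O l))) (A (A (O l) (O l)) (A (O l) (O l)))) (A (A (A (O l) (O l)) (A (O l) (O l))) (A (O l) (O l)))) (A (A (A (O l) (O l)) (O l)) (A (O l) (O l)))))))

theorem hnu3 (x : ℝ) (h0 : 0 ≤ x) (h1 : x ≤ 1) : evalIL lnu3 x 0 ≤ 0 :=
  uni_le 10 65536 lnu3 (by norm_num) (by norm_num) (by decide +kernel)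
    (chkOut_sound (uniPb 10 65536 lnu3) tnu3 0 32768 0 32768 (by decide +kernel)) x h0 h1

/-- Certificate polynomial. -/
def lnl3 : List ITm := [⟨(-951081062794401077553629875183105468750000000000000),0,0⟩,⟨(-1914402976240126008633524179458618164062500000000000),1,0⟩,⟨7677463238571215406409464776515960693359375000000000,2,0⟩,⟨10722997874806260436774464324116706848144531250000000,3,0⟩,⟨(-22463182189221571003627628087997436523437500000000000),4,0⟩,⟨(-13490085679453494088580213802280426025390625000000000),5,0⟩,⟨18191311290239036264296468610534593505859375000000000,6,0⟩,⟨7203759424894810950817519640195681115805664062500000,7,0⟩,⟨(-4457621362176650819990163994384989484883512968750000),8,0⟩,⟨(-920352336504990974105119134188410619249074246901250),9,0⟩,⟨398071993298587977856154246200208680789667870970351,10,0⟩]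

/-- Certificate tree. -/
def tnl3 : OutT := (A (A (O l) (A (O l) (A (O l) (O l)))) (A (A (A (A (O l) (O l)) (A (A (O l) (O l)) (A (A (O l) (O l)) (A (O l) (O l))))) (A (A (A (A (O l) (O l)) (A (O l) (O l))) (A (O l) (O l))) (A (A (O l) (O l)) (O l)))) (A (A (A (O l) (O l)) (A (O l) (O l))) (A (A (O l) (O l)) (A (O l) (A (O l) (A (O l) (A (O l) (A (O l) (O l))))))))))

theorem hnl3 (x : ℝ) (h0 : 0 ≤ x) (h1 : x ≤ 1) : evalIL lnl3 x 0 ≤ 0 :=
  uni_le 10 65536 lnl3 (by norm_num) (by norm_num) (by decide +kernel)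
    (chkOut_sound (uniPb 10 65536 lnl3) tnl3 0 32768 0 32768 (by decide +kernel)) x h0 h1

theorem apx3 (u : ℝ) (h0 : -(23247 / 62500 : ℝ) ≤ u) (h1 : u ≤ 2 * (23247 / 62500 : ℝ)) :
    |((1 + u)⁻¹) ^ 3 - evalZ Ax.p3 (3 * u) / Ax.D3| ≤ Ax.e3 * |u| ^ Ax.m3 := by
  have hu : 0 < 1 + u := by norm_num at h0 ⊢; linarith
  refine apx_of_S 3 2 _ (S3 u) _ u hu ?_ ?_ ?_
  · simp only [Ax, evalZ_cons, evalZ_nil, S3]
    push_cast
    ring
  · rcases le_total 0 u with hs | hs
    · have hx := hpu3 (u / (2 * (23247 / 62500 : ℝ))) (by positivity) (by rw [div_le_one (by norm_num)]; exact h1)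
      have e : evalIL lpu3 (u / (2 * (23247 / 62500 : ℝ))) 0 = 298023223876953125000000000000000000000000000000000 * (S3 u - Ax.e3 * (1 + u) ^ 3) := by
        simp only [lpu3, evalIL, List.map_cons, List.map_nil, List.sum_cons, List.sum_nil, S3, Ax]
        push_cast
        ring
      rw [e] at hx
      have := cmul_nonpos (by norm_num) hx
      simp only [Ax] at this ⊢
      linarith
    · have hx := hnu3 (-u / (23247 / 62500 : ℝ)) (by apply div_nonneg <;> [linarith; norm_num]) (by rw [div_le_one (by norm_num)]; linarith)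
      have e : evalIL lnu3 (-u / (23247 / 62500 : ℝ)) 0 = 305175781250000000000000000000000000000000000000000000 * (S3 u - Ax.e3 * (1 + u) ^ 3) := by
        simp only [lnu3, evalIL, List.map_cons, List.map_nil, List.sum_cons, List.sum_nil, S3, Ax]
        push_cast
        ring
      rw [e] at hx
      have := cmul_nonpos (by norm_num) hx
      simp only [Ax] at this ⊢
      linarith
  · rcases le_total 0 u with hs | hs
    · have hx := hpl3 (u / (2 * (23247 / 62500 : ℝ))) (by positivity) (by rw [div_le_one (by norm_num)]; exact h1)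
      have e : evalIL lpl3 (u / (2 * (23247 / 62500 : ℝ))) 0 = 298023223876953125000000000000000000000000000000000 * (-S3 u - Ax.e3 * (1 + u) ^ 3) := by
        simp only [lpl3, evalIL, List.map_cons, List.map_nil, List.sum_cons, List.sum_nil, S3, Ax]
        push_cast
        ring
      rw [e] at hx
      have := cmul_nonpos (by norm_num) hx
      simp only [Ax] at this ⊢
      linarith
    · have hx := hnl3 (-u / (23247 / 62500 : ℝ)) (by apply div_nonneg <;> [linarith; norm_num]) (by rw [div_le_one (by norm_num)]; linarith)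
      have e : evalIL lnl3 (-u / (23247 / 62500 : ℝ)) 0 = 305175781250000000000000000000000000000000000000000000 * (-S3 u - Ax.e3 * (1 + u) ^ 3) := by
        simp only [lnl3, evalIL, List.map_cons, List.map_nil, List.sum_cons, List.sum_nil, S3, Ax]
        push_cast
        ring
      rw [e] at hx
      have := cmul_nonpos (by norm_num) hx
      simp only [Ax] at this ⊢
      linarith

/-- The quotient polynomial for `j = 4`. -/
noncomputable def S4 (u : ℝ) : ℝ :=
  (455893 / 16777216 : ℝ) * u ^ 0 + (691815 / 4194304 : ℝ) * u ^ 1 + (-34463727 / 16777216 : ℝ) * u ^ 2 + (-148547127 / 16777216 : ℝ) * u ^ 3 + (341895001 / 16777216 : ℝ) * u ^ 4 + (1352852413 / 16777216 : ℝ) * u ^ 5 + (-117053627 / 2097152 : ℝ) * u ^ 6 + (-3653914601 / 16777216 : ℝ) * u ^ 7 + (-3930187 / 524288 : ℝ) * u ^ 8 + (3196703967 / 16777216 : ℝ) * u ^ 9 + (1487392529 / 16777216 : ℝ) * u ^ 10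

/-- Certificate polynomial. -/
def lpu4 : List ITm := [⟨(-13040582502732434022618690505623817443847656250000),0,0⟩,⟨584709277875461452822491992264986038208007812500000,1,0⟩,⟨(-18327091000239325097709297551773488521575927734375000),2,0⟩,⟨(-55002661431465029693046744796447455883026123046875000),3,0⟩,⟨92867206087582965278953901128261350095272064208984375,4,0⟩,⟨273738010844868844060105574127763509750366210937500000,5,0⟩,⟨(-140953687702348557146606464987160362243652343750000000),6,0⟩,⟨(-409144641030790014596152214595749159236541748046875000),7,0⟩,⟨(-10476074093386680584785198166625398202278343750000000),8,0⟩,⟨198086410462768828521300327807840974940588444446531250,9,0⟩,⟨68563779864773459781129399647878164565943579787879921,10,0⟩]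

/-- Certificate tree. -/
def tpu4 : OutT := (A (A (A (A (A (O l) (O l)) (A (O l) (O l))) (A (O l) (O l))) (A (O l) (A (O l) (O l)))) (A (A (A (A (O l) (O l)) (A (O l) (A (O l) (O l)))) (A (A (A (O l) (A (O l) (O l))) (A (A (O l) (A (O l) (O l))) (A (A (O l) (O l)) (A (O l) (O l))))) (A (A (A (A (O l) (O l)) (O l)) (A (O l) (O l))) (A (A (O l) (O l)) (O l))))) (A (A (A (A (O l) (O l)) (A (O l) (O l))) (A (O l) (O l))) (A (A (O l) (O l)) (A (O l) (A (O l) (A (O l) (A (O l) (A (O l) (O l))))))))))

theorem hpu4 (x : ℝ) (h0 : 0 ≤ x) (h1 : x ≤ 1) : evalIL lpu4 x 0 ≤ 0 :=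
  uni_le 10 65536 lpu4 (by norm_num) (by norm_num) (by decide +kernel)
    (chkOut_sound (uniPb 10 65536 lpu4) tpu4 0 32768 0 32768 (by decide +kernel)) x h0 h1

/-- Certificate polynomial. -/
def lpl4 : List ITm := [⟨(-822869231087430819115979829803109169006347656250000),0,0⟩,⟨(-3072055893751368671473755966871976852416992187500000),1,0⟩,⟨15551570354834498772333972738124430179595947265625000,2,0⟩,⟨53626180824665541744545407709665596485137939453125000,3,0⟩,⟨(-93123198444913106849664385794312693178653717041015625),4,0⟩,⟨(-273738010844868844060105574127763509750366210937500000),5,0⟩,⟨140953687702348557146606464987160362243652343750000000,6,0⟩,⟨409144641030790014596152214595749159236541748046875000,7,0⟩,⟨10476074093386680584785198166625398202278343750000000,8,0⟩,⟨(-198086410462768828521300327807840974940588444446531250),9,0⟩,⟨(-68563779864773459781129399647878164565943579787879921),10,0⟩]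

/-- Certificate tree. -/
def tpl4 : OutT := (A (A (A (O l) (A (O l) (O l))) (A (A (A (O l) (O l)) (A (A (O l) (O l)) (A (A (O l) (O l)) (A (O l) (O l))))) (A (A (A (O l) (O l)) (A (O l) (O l))) (A (O l) (O l))))) (A (A (A (A (O l) (O l)) (O l)) (A (O l) (A (O l) (O l)))) (A (A (A (O l) (O l)) (A (A (O l) (O l)) (A (O l) (O l)))) (A (A (A (A (O l) (O l)) (A (A (O l) (O l)) (A (O l) (O l)))) (A (A (A (O l) (O l)) (A (O l) (O l))) (A (A (O l) (O l)) (A (O l) (O l))))) (A (A (A (O l) (O l)) (A (O l) (O l))) (A (O l) (O l)))))))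

theorem hpl4 (x : ℝ) (h0 : 0 ≤ x) (h1 : x ≤ 1) : evalIL lpl4 x 0 ≤ 0 :=
  uni_le 10 65536 lpl4 (by norm_num) (by norm_num) (by decide +kernel)
    (chkOut_sound (uniPb 10 65536 lpl4) tpl4 0 32768 0 32768 (by decide +kernel)) x h0 h1

/-- Certificate polynomial. -/
def lnu4 : List ITm := [⟨(-13353556482798012439161539077758789062500000000000000),0,0⟩,⟨(-299371150272236263845115900039672851562500000000000000),1,0⟩,⟨(-4691735296061267225013580173254013061523437500000000000),2,0⟩,⟨7040340663227523800709983333945274353027343750000000000,3,0⟩,⟨5943501189605309777853049672208726406097412109375000000,4,0⟩,⟨(-8759616347035803009923378372088432312011718750000000000),5,0⟩,⟨(-2255259003237576914345703439794565795898437500000000000),6,0⟩,⟨3273157128246320116769217716765993273892333984375000000,7,0⟩,⟨(-41904296373546722339140792666501592809113375000000000),8,0⟩,⟨(-396172820925537657042600655615681949881176888893062500),9,0⟩,⟨68563779864773459781129399647878164565943579787879921,10,0⟩]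

/-- Certificate tree. -/
def tnu4 : OutT := (A (A (A (A (O l) (O l)) (O l)) (A (O l) (O l))) (A (A (O l) (A (O l) (O l))) (A (A (A (O l) (O l)) (A (A (O l) (O l)) (A (A (O l) (O l)) (A (O l) (A (O l) (O l)))))) (A (A (A (A (A (O l) (O l)) (A (O l) (O l))) (A (A (O l) (O l)) (O l))) (A (A (O l) (O l)) (O l))) (A (A (O l) (O l)) (O l))))))

theorem hnu4 (x : ℝ) (h0 : 0 ≤ x) (h1 : x ≤ 1) : evalIL lnu4 x 0 ≤ 0 :=
  uni_le 10 65536 lnu4 (by norm_num) (by norm_num) (by decide +kernel)
    (chkOut_sound (uniPb 10 65536 lnu4) tnu4 0 32768 0 32768 (by decide +kernel)) x h0 h1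

/-- Certificate polynomial. -/
def lnl4 : List ITm := [⟨(-842618092633529158774763345718383789062500000000000000),0,0⟩,⟨1572892617600700759794563055038452148437500000000000000,1,0⟩,⟨3981202010837631685717497020959854125976562500000000000,2,0⟩,⟨(-6864151145557189343301812186837196350097656250000000000),3,0⟩,⟨(-5959884700474438838378520690836012363433837890625000000),4,0⟩,⟨8759616347035803009923378372088432312011718750000000000,5,0⟩,⟨2255259003237576914345703439794565795898437500000000000,6,0⟩,⟨(-3273157128246320116769217716765993273892333984375000000),7,0⟩,⟨41904296373546722339140792666501592809113375000000000,8,0⟩,⟨396172820925537657042600655615681949881176888893062500,9,0⟩,⟨(-68563779864773459781129399647878164565943579787879921),10,0⟩]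

/-- Certificate tree. -/
def tnl4 : OutT := (A (A (O l) (A (O l) (A (O l) (A (O l) (A (O l) (O l)))))) (A (A (A (A (A (O l) (O l)) (A (O l) (O l))) (A (A (O l) (O l)) (O l))) (A (A (O l) (O l)) (A (O l) (O l)))) (A (A (O l) (O l)) (A (A (O l) (O l)) (A (O l) (A (O l) (A (O l) (A (O l) (O l)))))))))

theorem hnl4 (x : ℝ) (h0 : 0 ≤ x) (h1 : x ≤ 1) : evalIL lnl4 x 0 ≤ 0 :=
  uni_le 10 65536 lnl4 (by norm_num) (by norm_num) (by decide +kernel)
    (chkOut_sound (uniPb 10 65536 lnl4) tnl4 0 32768 0 32768 (by decide +kernel)) x h0 h1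

theorem apx4 (u : ℝ) (h0 : -(23247 / 62500 : ℝ) ≤ u) (h1 : u ≤ 2 * (23247 / 62500 : ℝ)) :
    |((1 + u)⁻¹) ^ 4 - evalZ Ax.p4 (3 * u) / Ax.D4| ≤ Ax.e4 * |u| ^ Ax.m4 := by
  have hu : 0 < 1 + u := by norm_num at h0 ⊢; linarith
  refine apx_of_S 4 2 _ (S4 u) _ u hu ?_ ?_ ?_
  · simp only [Ax, evalZ_cons, evalZ_nil, S4]
    push_cast
    ring
  · rcases le_total 0 u with hs | hs
    · have hx := hpu4 (u / (2 * (23247 / 62500 : ℝ))) (by positivity) (by rw [div_le_one (by norm_num)]; exact h1)
      have e : evalIL lpu4 (u / (2 * (23247 / 62500 : ℝ))) 0 = 14901161193847656250000000000000000000000000000000000 * (S4 u - Ax.e4 * (1 + u) ^ 4) := by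
        simp only [lpu4, evalIL, List.map_cons, List.map_nil, List.sum_cons, List.sum_nil, S4, Ax]
        push_cast
        ring
      rw [e] at hx
      have := cmul_nonpos (by norm_num) hx
      simp only [Ax] at this ⊢
      linarith
    · have hx := hnu4 (-u / (23247 / 62500 : ℝ)) (by apply div_nonneg <;> [linarith; norm_num]) (by rw [div_le_one (by norm_num)]; linarith)
      have e : evalIL lnu4 (-u / (23247 / 62500 : ℝ)) 0 = 15258789062500000000000000000000000000000000000000000000 * (S4 u - Ax.e4 * (1 + u) ^ 4) := by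
        simp only [lnu4, evalIL, List.map_cons, List.map_nil, List.sum_cons, List.sum_nil, S4, Ax]
        push_cast
        ring
      rw [e] at hx
      have := cmul_nonpos (by norm_num) hx
      simp only [Ax] at this ⊢
      linarith
  · rcases le_total 0 u with hs | hs
    · have hx := hpl4 (u / (2 * (23247 / 62500 : ℝ))) (by positivity) (by rw [div_le_one (by norm_num)]; exact h1)
      have e : evalIL lpl4 (u / (2 * (23247 / 62500 : ℝ))) 0 = 14901161193847656250000000000000000000000000000000000 * (-S4 u - Ax.e4 * (1 + u) ^ 4) := by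
        simp only [lpl4, evalIL, List.map_cons, List.map_nil, List.sum_cons, List.sum_nil, S4, Ax]
        push_cast
        ring
      rw [e] at hx
      have := cmul_nonpos (by norm_num) hx
      simp only [Ax] at this ⊢
      linarith
    · have hx := hnl4 (-u / (23247 / 62500 : ℝ)) (by apply div_nonneg <;> [linarith; norm_num]) (by rw [div_le_one (by norm_num)]; linarith)
      have e : evalIL lnl4 (-u / (23247 / 62500 : ℝ)) 0 = 15258789062500000000000000000000000000000000000000000000 * (-S4 u - Ax.e4 * (1 + u) ^ 4) := by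
        simp only [lnl4, evalIL, List.map_cons, List.map_nil, List.sum_cons, List.sum_nil, S4, Ax]
        push_cast
        ring
      rw [e] at hx
      have := cmul_nonpos (by norm_num) hx
      simp only [Ax] at this ⊢
      linarith

/-- The quotient polynomial for `j = 5`. -/
noncomputable def S5 (u : ℝ) : ℝ :=
  (95613 / 1048576 : ℝ) * u ^ 0 + (2450345 / 4194304 : ℝ) * u ^ 1 + (-55247219 / 8388608 : ℝ) * u ^ 2 + (-588941117 / 16777216 : ℝ) * u ^ 3 + (745779081 / 16777216 : ℝ) * u ^ 4 + (5531411407 / 16777216 : ℝ) * u ^ 5 + (404136509 / 8388608 : ℝ) * u ^ 6 + (-7540851449 / 8388608 : ℝ) * u ^ 7 + (-11457287723 / 16777216 : ℝ) * u ^ 8 + (10355525691 / 16777216 : ℝ) * u ^ 9 + (7414377927 / 8388608 : ℝ) * u ^ 10 + (4607238353 / 16777216 : ℝ) * u ^ 11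

/-- Certificate polynomial. -/
def lpu5 : List ITm := [⟨(-1091126754920734853726571600418537855148315429687500000),0,0⟩,⟨40381937328401451559045653993962332606315612792968750000,1,0⟩,⟨(-1938179312222236116092233260133070871233940124511718750000),2,0⟩,⟨(-6908635441980232460622261214666650630533695220947265625000),3,0⟩,⟨6272418535952134343962648885735688963904976844787597656250,4,0⟩,⟨34966120781810511119844333704875069088302552700042724609375,5,0⟩,⟨3801978734199070420144940940506223499774932861328125000000,6,0⟩,⟨(-52773862009583433186779848492327181456159591674804687500000),7,0⟩,⟨(-29824090564354619865799203191788549110721270843505859375000),8,0⟩,⟨20052772849794095849671101689755118784273155562301757812500,9,0⟩,⟨21361113748956084454044783286994269778221973891038526437500,10,0⟩,⟨4937154893479916439031787286376330829719991538284873251359,11,0⟩]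

/-- Certificate tree. -/
def tpu5 : OutT := (A (A (A (A (A (A (O l) (O l)) (O l)) (A (O l) (O l))) (A (O l) (O l))) (A (O l) (A (O l) (O l)))) (A (A (A (A (O l) (O l)) (A (O l) (A (O l) (O l)))) (A (A (A (O l) (A (O l) (O l))) (A (A (O l) (A (O l) (O l))) (A (A (O l) (O l)) (A (O l) (O l))))) (A (A (A (O l) (O l)) (A (O l) (O l))) (A (A (O l) (O l)) (O l))))) (A (A (A (A (O l) (O l)) (A (O l) (O l))) (A (O l) (O l))) (A (A (O l) (O l)) (A (O l) (A (O l) (A (O l) (A (O l) (A (O l) (O l))))))))))

theorem hpu5 (x : ℝ) (h0 : 0 ≤ x) (h1 : x ≤ 1) : evalIL lpu5 x 0 ≤ 0 :=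
  uni_le 11 65536 lpu5 (by norm_num) (by norm_num) (by decide +kernel)
    (chkOut_sound (uniPb 11 65536 lpu5) tpu5 0 32768 0 32768 (by decide +kernel)) x h0 h1

/-- Certificate polynomial. -/
def lpl5 : List ITm := [⟨(-86012529997708808693346327345352619886398315429687500000),0,0⟩,⟨(-364365730692942091373254243080737069249153137207031250000),1,0⟩,⟨1456153632584125635851535207621054723858833312988281250000,2,0⟩,⟨6550054610794723521929284970610751770436763763427734375000,3,0⟩,⟨(-6405793393273246764727378785664768656715750694274902343750),4,0⟩,⟨(-34985964399782632082695646831170437508262693881988525390625),5,0⟩,⟨(-3801978734199070420144940940506223499774932861328125000000),6,0⟩,⟨52773862009583433186779848492327181456159591674804687500000,7,0⟩,⟨29824090564354619865799203191788549110721270843505859375000,8,0⟩,⟨(-20052772849794095849671101689755118784273155562301757812500),9,0⟩,⟨(-21361113748956084454044783286994269778221973891038526437500),10,0⟩,⟨(-4937154893479916439031787286376330829719991538284873251359),11,0⟩]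

/-- Certificate tree. -/
def tpl5 : OutT := (A (A (A (O l) (O l)) (A (A (A (O l) (O l)) (A (A (O l) (O l)) (A (O l) (O l)))) (A (A (A (O l) (O l)) (O l)) (A (O l) (O l))))) (A (A (A (A (O l) (O l)) (O l)) (A (O l) (A (O l) (O l)))) (A (A (A (O l) (O l)) (A (A (O l) (O l)) (A (O l) (O l)))) (A (A (A (A (O l) (O l)) (A (A (O l) (O l)) (A (O l) (O l)))) (A (A (A (O l) (O l)) (A (O l) (O l))) (A (A (O l) (O l)) (A (O l) (O l))))) (A (A (A (O l) (O l)) (A (O l) (O l))) (A (O l) (O l)))))))

theorem hpl5 (x : ℝ) (h0 : 0 ≤ x) (h1 : x ≤ 1) : evalIL lpl5 x 0 ≤ 0 :=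
  uni_le 11 65536 lpl5 (by norm_num) (by norm_num) (by decide +kernel)
    (chkOut_sound (uniPb 11 65536 lpl5) tpl5 0 32768 0 32768 (by decide +kernel)) x h0 h1

/-- Certificate polynomial. -/
def lnu5 : List ITm := [⟨(-2234627594077664980432018637657165527343750000000000000000),0,0⟩,⟨(-41351103824283086396462749689817428588867187500000000000000),1,0⟩,⟨(-992347807857784891439223429188132286071777343750000000000000),2,0⟩,⟨1768610673146939509919298870954662561416625976562500000000000,3,0⟩,⟨802869572601873196027219057374168187379837036132812500000000,4,0⟩,⟨(-2237831730035872711670037357112004421651363372802734375000000),5,0⟩,⟨121663319494370253444638110096199151992797851562500000000000,6,0⟩,⟨844381792153334930988477575877234903298553466796875000000000,7,0⟩,⟨(-238592724514836958926393625534308392885770166748046875000000),8,0⟩,⟨(-80211091399176383398684406759020475137092622249207031250000),9,0⟩,⟨42722227497912168908089566573988539556443947782077052875000,10,0⟩,⟨(-4937154893479916439031787286376330829719991538284873251359),11,0⟩]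

/-- Certificate tree. -/
def tnu5 : OutT := (A (A (A (A (O l) (O l)) (O l)) (A (O l) (O l))) (A (A (A (O l) (O l)) (A (O l) (A (O l) (O l)))) (A (A (A (O l) (A (O l) (O l))) (A (A (O l) (A (O l) (O l))) (A (A (O l) (O l)) (A (A (O l) (O l)) (A (O l) (O l)))))) (A (A (A (A (A (O l) (O l)) (A (O l) (O l))) (A (A (O l) (O l)) (A (O l) (O l)))) (A (A (O l) (O l)) (A (O l) (O l)))) (A (A (O l) (O l)) (A (O l) (O l)))))))

theorem hnu5 (x : ℝ) (h0 : 0 ≤ x) (h1 : x ≤ 1) : evalIL lnu5 x 0 ≤ 0 :=
  uni_le 11 65536 lnu5 (by norm_num) (by norm_num) (by decide +kernel)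
    (chkOut_sound (uniPb 11 65536 lnu5) tnu5 0 32768 0 32768 (by decide +kernel)) x h0 h1

/-- Certificate polynomial. -/
def lnl5 : List ITm := [⟨(-176153661435307640203973278403282165527343750000000000000000),0,0⟩,⟨373110508229572701566212344914674758911132812500000000000000,1,0⟩,⟨745550659883072325555986026301980018615722656250000000000000,2,0⟩,⟨(-1676813980363449221613896952476352453231811523437500000000000),3,0⟩,⟨(-819941554338975585885104484565090388059616088867187500000000),4,0⟩,⟨2239101721586088453292521397194908000528812408447265625000000,5,0⟩,⟨(-121663319494370253444638110096199151992797851562500000000000),6,0⟩,⟨(-844381792153334930988477575877234903298553466796875000000000),7,0⟩,⟨238592724514836958926393625534308392885770166748046875000000,8,0⟩,⟨80211091399176383398684406759020475137092622249207031250000,9,0⟩,⟨(-42722227497912168908089566573988539556443947782077052875000),10,0⟩,⟨4937154893479916439031787286376330829719991538284873251359,11,0⟩]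

/-- Certificate tree. -/
def tnl5 : OutT := (A (A (O l) (A (O l) (A (O l) (A (O l) (A (O l) (O l)))))) (A (A (A (A (A (O l) (O l)) (A (A (O l) (O l)) (A (O l) (O l)))) (A (A (O l) (O l)) (A (O l) (O l)))) (A (A (O l) (O l)) (A (O l) (O l)))) (A (A (A (O l) (O l)) (A (O l) (O l))) (A (A (O l) (O l)) (A (A (O l) (O l)) (A (O l) (A (O l) (A (O l) (A (O l) (O l))))))))))

theorem hnl5 (x : ℝ) (h0 : 0 ≤ x) (h1 : x ≤ 1) : evalIL lnl5 x 0 ≤ 0 :=
  uni_le 11 65536 lnl5 (by norm_num) (by norm_num) (by decide +kernel)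
    (chkOut_sound (uniPb 11 65536 lnl5) tnl5 0 32768 0 32768 (by decide +kernel)) x h0 h1

theorem apx5 (u : ℝ) (h0 : -(23247 / 62500 : ℝ) ≤ u) (h1 : u ≤ 2 * (23247 / 62500 : ℝ)) :
    |((1 + u)⁻¹) ^ 5 - evalZ Ax.p5 (3 * u) / Ax.D5| ≤ Ax.e5 * |u| ^ Ax.m5 := by
  have hu : 0 < 1 + u := by norm_num at h0 ⊢; linarith
  refine apx_of_S 5 2 _ (S5 u) _ u hu ?_ ?_ ?_
  · simp only [Ax, evalZ_cons, evalZ_nil, S5]
    push_cast
    ring
  · rcases le_total 0 u with hs | hs
    · have hx := hpu5 (u / (2 * (23247 / 62500 : ℝ))) (by positivity) (by rw [div_le_one (by norm_num)]; exact h1)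
      have e : evalIL lpu5 (u / (2 * (23247 / 62500 : ℝ))) 0 = 465661287307739257812500000000000000000000000000000000000 * (S5 u - Ax.e5 * (1 + u) ^ 5) := by
        simp only [lpu5, evalIL, List.map_cons, List.map_nil, List.sum_cons, List.sum_nil, S5, Ax]
        push_cast
        ring
      rw [e] at hx
      have := cmul_nonpos (by norm_num) hx
      simp only [Ax] at this ⊢
      linarith
    · have hx := hnu5 (-u / (23247 / 62500 : ℝ)) (by apply div_nonneg <;> [linarith; norm_num]) (by rw [div_le_one (by norm_num)]; linarith)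
      have e : evalIL lnu5 (-u / (23247 / 62500 : ℝ)) 0 = 953674316406250000000000000000000000000000000000000000000000 * (S5 u - Ax.e5 * (1 + u) ^ 5) := by
        simp only [lnu5, evalIL, List.map_cons, List.map_nil, List.sum_cons, List.sum_nil, S5, Ax]
        push_cast
        ring
      rw [e] at hx
      have := cmul_nonpos (by norm_num) hx
      simp only [Ax] at this ⊢
      linarith
  · rcases le_total 0 u with hs | hs
    · have hx := hpl5 (u / (2 * (23247 / 62500 : ℝ))) (by positivity) (by rw [div_le_one (by norm_num)]; exact h1)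
      have e : evalIL lpl5 (u / (2 * (23247 / 62500 : ℝ))) 0 = 465661287307739257812500000000000000000000000000000000000 * (-S5 u - Ax.e5 * (1 + u) ^ 5) := by
        simp only [lpl5, evalIL, List.map_cons, List.map_nil, List.sum_cons, List.sum_nil, S5, Ax]
        push_cast
        ring
      rw [e] at hx
      have := cmul_nonpos (by norm_num) hx
      simp only [Ax] at this ⊢
      linarith
    · have hx := hnl5 (-u / (23247 / 62500 : ℝ)) (by apply div_nonneg <;> [linarith; norm_num]) (by rw [div_le_one (by norm_num)]; linarith)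
      have e : evalIL lnl5 (-u / (23247 / 62500 : ℝ)) 0 = 953674316406250000000000000000000000000000000000000000000000 * (-S5 u - Ax.e5 * (1 + u) ^ 5) := by
        simp only [lnl5, evalIL, List.map_cons, List.map_nil, List.sum_cons, List.sum_nil, S5, Ax]
        push_cast
        ring
      rw [e] at hx
      have := cmul_nonpos (by norm_num) hx
      simp only [Ax] at this ⊢
      linarith

theorem hAx : Ax.OK (-(23247 / 62500 : ℝ)) (2 * (23247 / 62500 : ℝ)) where
  e10 := by simp only [Ax]; norm_num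
  e20 := by simp only [Ax]; norm_num
  e30 := by simp only [Ax]; norm_num
  e40 := by simp only [Ax]; norm_num
  e50 := by simp only [Ax]; norm_num
  h1 := fun u a b => by simpa using apx1 u a b
  h2 := apx2
  h3 := apx3
  h4 := apx4
  h5 := apx5

end Vale.Agent.P154.D7.K1
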