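import Vale.Agent.P154.D7.K1.Data
import Vale.Agent.P154.Check2

namespace Vale.Agent.P154.D7.K1

open Cert

/-- Chart (0, 0). -/
def P00 : Pb := chartPb false false Nd w G []

/-- Chart (0, 1). -/
def P01 : Pb := chartPb false true Nd w G []

/-- Chart (1, 0). -/
def P10 : Pb := chartPb true false Nd w G []

/-- Chart (1, 1). -/
def P11 : Pb := chartPb true true Nd w G []

/-- The offset. -/
def KK : ℕ := 47125446914534694131579097993419809976955095716785201420286055195012674566357244479460731079205201122720511132925006540350105785156086431086764996857554304860885586653967937772270969055149056096849908977391371752266308172471982589601097478449614615258949356272900190565812730839296826751014759649673012612226351104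

end Vale.Agent.P154.D7.K1
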