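import Vale.Agent.P154.D7.K1.Charts

set_option maxRecDepth 100000

namespace Vale.Agent.P154.D7.K1

open Cert InT OutT

/-- Certificate tree. -/
def tr00_r100 : OutT :=
(A (B (A (B (O (c (c l (c l l)) (c (c (c l l) (d l l)) (d (c k k) (c (d (c l l) (c l l)) (d (c k k) (c l (d (c k k) l)))))))) (O (c (c (c l l) (c l l)) (c (c (c l l) (d l l)) (d (c k k) (c (d (c l l) (c l l)) (d (c k k) (c l (d (c k k) l))))))))) (B (A (O (c (c l (c l l)) (c (c (c l l) (d l l)) (d (c k k) (c (d l l) (d (d k l) (c l l))))))) (O (c (c l (c l (c l l))) (c (c (d (d (c l l) l) (c l l)) (d (d (c k k) (c l (d k l))) (d (c l l) l))) (d (c k k) (c (d (c (d k l) (d k l)) (c l l)) (d (c k k) (c (c l l) (d (c k k) l))))))))) (A (O (c (c l (c l l)) (c (c (c l l) (d l l)) (d (c k k) (c (d l l) (d (d k l) (c l l))))))) (O (c (c l (c l (c l l))) (c (c (d (c l l) l) (d (d (c k k) (c l l)) (d l l))) (d (c k k) (c (d (c l (d k l)) (c l l)) (d (c k k) (c (c l l) (d (c k k) l)))))))))))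 (A (B (O (c (c (c l l) (c l l)) (c (c l (d l l)) (c (d k (d (c l l) (c l l))) (d k (d (c k k) (c (c l l) (d (c k k) (c l l))))))))) (A (O (c (c (c l l) (c l l)) (c (c l l) (d (c k k) (c l (c l l)))))) (O (c (c (c l l) (c l l)) (c (c l l) (d (c k k) (c l (d l l)))))))) (B (A (O (c (c l (c l l)) (c (c l (d l l)) (d (c k k) (c (c l l) (d (d k l) (c l l))))))) (O (c (c l (c l (c l l))) (c (c (d l l) (d (c l l) (c l l))) (d (c k k) (c (d (c l l) (c l l)) (d (c k k) (c l (d (c k k) l))))))))) (A (O (c (c (c l l) (c l l)) (c (c l (c l l)) (d (c k k) (c (c l l) (d (c k k) (c l l))))))) (O (c (c l (c l l)) (c (c (c l l) (d l l)) (d (c k k) (c (d l l) (d (c k k) (c l (c l l)))))))))))) (B (A s s) (A (B (A (B (A s s) (O (c (c l (c l (d (c l l) l))) (c (c (d (c l (d l l)) (c l l)) (d (d (c k k) (c l (d k l))) (d (c l l) l))) (d (c k k) (c (d (c (c l k) (d k l)) (c l l)) (d (c k k) (c (c l l) (d (c k k) l))))))))) s) (A (B (O (c (c l (c l (c l l))) (c (c (d (c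 l l) l) (d (d (c k k) l) (c l l))) (d (c k k) (c (d (c l (c k k)) (c l l)) (d (c k k) (c (c l l) (d (c k k) l)))))))) (O (c (c l (c l (c l l))) (c (c (c l l) (d l (c l l))) (d (c k k) (c (d (c l l) l) (d (c k k) (c l (d (c k k) l))))))))) (B s (A (O (c (c l (c l (c l l))) (c (c (d l l) (d (c l l) (c l l))) (d (c k k) (c (d l l) (d (d k l) (c l l))))))) s)))) (B s (A s s)))))

theorem s00_r100 : Sound P00 32768 8192 0 16384 :=
  chkOut2_sound P00 KK tr00_r100 32768 8192 0 16384 (by decide +kernel)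

end Vale.Agent.P154.D7.K1
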